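import Mathlib

/-!
P235 (Gupta-Newman-Rabinovich-Sinclair conjecture).  Gluing at a cut point.

Let a metric space be covered by two sets `A`, `B` that share the point `p`, and suppose that every
shortest connection between `A` and `B` runs through `p`, that is
`dist x y = dist x p + dist p y` for `x` in `A`, `y` in `B` (this is what happens for the
shortest path metric of a graph with cut vertex `p`, for all edge lengths).  If `A` and `B` embed
into finite dimensional `l_1` spaces with distortion at most `C`, then so does the whole space.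
-/

namespace Vale.Agent.Results.P235.CutVertexGluing

theorem result {X : Type*} [MetricSpace X] (A B : Set X) (p : X) (hpA : p ∈ A) (hpB : p ∈ B)
    (hcov : ∀ x, x ∈ A ∨ x ∈ B)
    (hsum : ∀ x ∈ A, ∀ y ∈ B, dist x y = dist x p + dist p y)
    (C : ℝ) {ι κ : Type*} [Fintype ι] [Fintype κ] (f : X → ι → ℝ) (g : X → κ → ℝ)
    (hf : ∀ x ∈ A, ∀ y ∈ A, dist x y ≤ ∑ i, |f x i - f y i| ∧ ∑ i, |f x i - f y i| ≤ C * dist x y)
    (hg : ∀ x ∈ B, ∀ y ∈ B, dist x y ≤ ∑ k, |g x k - g y k| ∧ ∑ k, |g x k - g y k| ≤ C * dist x y) :
    ∃ h : X → (ι ⊕ κ) → ℝ, ∀ x y,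
      dist x y ≤ ∑ j, |h x j - h y j| ∧ ∑ j, |h x j - h y j| ≤ C * dist x y := by
  classical
  refine ⟨fun x => Sum.elim (fun i => if x ∈ A then f x i - f p i else 0)
    (fun k => if x ∈ A then 0 else g x k - g p k), fun x y => ?_⟩
  rw [Fintype.sum_sum_type]
  simp only [Sum.elim_inl, Sum.elim_inr]
  by_cases hx : x ∈ A <;> by_cases hy : y ∈ A
  · simp only [hx, hy, if_true, sub_self, abs_zero, Finset.sum_const_zero, add_zero]
    have := hf x hx y hy
    simpa [sub_sub_sub_cancel_right] using this
  · have hyB : y ∈ B := (hcov y).resolve_left hy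
    simp only [hx, hy, if_true, if_false, sub_zero, zero_sub, abs_neg]
    have h1 := hf x hx p hpA
    have h2 := hg y hyB p hpB
    rw [hsum x hx y hyB, dist_comm p y]
    constructor
    · linarith [h1.1, h2.1]
    · linarith [h1.2, h2.2]
  · have hxB : x ∈ B := (hcov x).resolve_left hx
    simp only [hx, hy, if_true, if_false, sub_zero, zero_sub, abs_neg]
    have h1 := hf y hy p hpA
    have h2 := hg x hxB p hpB
    rw [dist_comm x y, hsum y hy x hxB, dist_comm p x]
    constructor
    · linarith [h1.1, h2.1]
    · linarith [h1.2, h2.2]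
  · have hxB : x ∈ B := (hcov x).resolve_left hx
    have hyB : y ∈ B := (hcov y).resolve_left hy
    simp only [hx, hy, if_false, sub_self, abs_zero, Finset.sum_const_zero, zero_add]
    have := hg x hxB y hyB
    simpa [sub_sub_sub_cancel_right] using this

end Vale.Agent.Results.P235.CutVertexGluing
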